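import Mathlib
import Vale.Agent.H19.MassAction
import Vale.Agent.H19.LinewiseFinal

/-!
# P072: the permanence conjecture for line-wise weakly reversible networks with
parallel-or-disjoint reaction vectors

Assume that any two reactions have reaction vectors that are proportional or have disjoint
supports, and that every reaction `y → y'` can be undone by a directed path from `y'` to `y`
through reactions whose reaction vectors are multiples of `y' - y`. Then the mass-action system
is permanent on every positive stoichiometric class, for all positive rate constants.

The class contains every weakly reversible network with a one-dimensional stoichiometric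
subspace and every reversible network in which each reaction changes only one species.
-/

namespace Vale.Agent.Results.P072.A_LinewiseParallelOrDisjoint

open Vale.Agent.H19

theorem result {d : ℕ} (R : Finset ((Fin d → ℕ) × (Fin d → ℕ)))
    (hne : ∀ r ∈ R, r.1 ≠ r.2)
    (hpar : ∀ r ∈ R, ∀ r' ∈ R,
      (∃ μ : ℝ, reactionVec r' = μ • reactionVec r) ∨
      (∀ i, reactionVec r i = 0 ∨ reactionVec r' i = 0))
    (hlw : ∀ r ∈ R, Relation.ReflTransGen
      (fun y y' => (y, y') ∈ R ∧ ∃ μ : ℝ, reactionVec (y, y') = μ • reactionVec r) r.2 r.1)
    (k : (Fin d → ℕ) × (Fin d → ℕ) → ℝ) (hk : ∀ r ∈ R, 0 < k r)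
    (c : Fin d → ℝ) (hc : ∀ i, 0 < c i) :
    IsPermanentOn (massAction R k) (posClass R c) :=
  permanent_linewise R hne hpar hlw k hk c hc

end Vale.Agent.Results.P072.A_LinewiseParallelOrDisjoint
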