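import Mathlib
import Vale.Agent.H19.MassAction
import Vale.Agent.H19.DimOne

/-!
# P072: the permanence conjecture when the stoichiometric subspace is one-dimensional

Every weakly reversible mass-action system (any number of species and of linkage classes,
arbitrary positive rate constants) whose stoichiometric subspace has dimension one is
permanent on each positive stoichiometric class.
-/

namespace Vale.Agent.Results.P072.A_PermanenceDimOne

open Vale.Agent.H19

theorem result {d : ℕ} (R : Finset ((Fin d → ℕ) × (Fin d → ℕ)))
    (hne : ∀ r ∈ R, r.1 ≠ r.2) (hwr : WeaklyReversible R)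
    (hdim : Module.finrank ℝ (stoichSubspace R) = 1)
    (k : (Fin d → ℕ) × (Fin d → ℕ) → ℝ) (hk : ∀ r ∈ R, 0 < k r)
    (c : Fin d → ℝ) (hc : ∀ i, 0 < c i) :
    IsPermanentOn (massAction R k) (posClass R c) :=
  permanent_of_finrank_one R hne hwr hdim k hk c hc

end Vale.Agent.Results.P072.A_PermanenceDimOne
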