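import Mathlib
import Vale.Agent.H19.MassAction
import Vale.Agent.H19.LinewiseFinal

/-!
# P072: uniform permanence with time-dependent rates for line-wise weakly reversible networks
with parallel-or-disjoint reaction vectors

Assume that any two reactions have reaction vectors that are proportional or have disjoint
supports, and that every reaction `y → y'` can be undone by a directed path from `y'` to `y`
through reactions whose reaction vectors are multiples of `y' - y`. Then for every `ε > 0` and
every positive stoichiometric class `P` there is one compact set `K ⊆ P` which, for all rate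
functions that are continuous in time with values in `[ε, ε⁻¹]`, eventually contains every
solution starting in `P`; these solutions exist for all times, are positive and unique.
-/

namespace Vale.Agent.Results.P072.B_VariableRatesLinewise

open Vale.Agent.H19

theorem result {d : ℕ} (R : Finset ((Fin d → ℕ) × (Fin d → ℕ)))
    (hne : ∀ r ∈ R, r.1 ≠ r.2)
    (hpar : ∀ r ∈ R, ∀ r' ∈ R,
      (∃ μ : ℝ, reactionVec r' = μ • reactionVec r) ∨
      (∀ i, reactionVec r i = 0 ∨ reactionVec r' i = 0))
    (hlw : ∀ r ∈ R, Relation.ReflTransGen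
      (fun y y' => (y, y') ∈ R ∧ ∃ μ : ℝ, reactionVec (y, y') = μ • reactionVec r) r.2 r.1)
    (ε : ℝ) (hε : 0 < ε) (c : Fin d → ℝ) (hc : ∀ i, 0 < c i) :
    ∃ K : Set (Fin d → ℝ), IsCompact K ∧ K ⊆ posClass R c ∧
      ∀ κ : ℝ → (Fin d → ℕ) × (Fin d → ℕ) → ℝ, (∀ r ∈ R, Continuous (fun t => κ t r)) →
        (∀ t, ∀ r ∈ R, ε ≤ κ t r ∧ κ t r ≤ ε⁻¹) →
        ∀ x0 ∈ posClass R c, ∃ x : ℝ → (Fin d → ℝ), x 0 = x0 ∧
          (∀ t, 0 ≤ t → HasDerivWithinAt x (massAction R (κ t) (x t)) (Set.Ici 0) t) ∧
          (∀ t, 0 ≤ t → ∀ i, 0 < x t i) ∧ (∃ T, ∀ t, T ≤ t → x t ∈ K) ∧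
          (∀ (T : ℝ) (z : ℝ → (Fin d → ℝ)), z 0 = x0 →
            (∀ t, 0 ≤ t → t < T → HasDerivWithinAt z (massAction R (κ t) (z t)) (Set.Ici 0) t) →
            ∀ t, 0 ≤ t → t < T → z t = x t) :=
  permanent_linewise_var R hne hpar hlw ε hε c hc

end Vale.Agent.Results.P072.B_VariableRatesLinewise
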